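import Vale.Agent.P136.Main

namespace Vale.Agent.Results.P136.A_full

open Vale.Agent.P136

/-- Global uniqueness for the inverse boundary value problem of isotropic elasticity in `ℝ³`. -/
theorem result (Ω : Set E3) (hΩ : IsOpen Ω) (hb : Bornology.IsBounded Ω)
    (lam₁ mu₁ lam₂ mu₂ : E3 → ℝ) (h₁ : Admissible Ω lam₁ mu₁) (h₂ : Admissible Ω lam₂ mu₂)
    (hDN : DN Ω lam₁ mu₁ = DN Ω lam₂ mu₂) : ∀ x ∈ Ω, lam₁ x = lam₂ x ∧ mu₁ x = mu₂ x :=
  uniqueness hΩ hb h₁ h₂ hDN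

end Vale.Agent.Results.P136.A_full
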